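import Vale.Agent.H49.FoulkesDim

/-!
# P181 (Foulkes' conjecture): the dimension inequality, with its equality cases

Let `V` be a complex vector space with a basis indexed by the finite type `α`.  The monomials of
degree `b` in the basis vectors, a basis of `Sym^b V`, are the multisets of size `b` on `α`, that
is the elements of `Sym α b`; so the standard basis of `Sym^a (Sym^b V)` is indexed by
`Sym (Sym α b) a` and
`dim Sym^a (Sym^b V) = Fintype.card (Sym (Sym α b) a)`.

An equivariant injection `Sym^a (Sym^b V) → Sym^b (Sym^a V)`, as Foulkes' conjecture asserts for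
`a ≤ b`, forces `dim Sym^a (Sym^b V) ≤ dim Sym^b (Sym^a V)`.  We prove this necessary condition
for all `1 ≤ a ≤ b` and all finite `α`, and show that equality holds exactly when `a = 1`,
`a = b` or `dim V ≤ 2`.
-/

namespace Vale.Agent.Results.P181.A_DimensionInequality

open Vale.Agent.H49.Foulkes

theorem result (α : Type*) [Fintype α] [DecidableEq α] (a b : ℕ) (ha : 1 ≤ a) (hab : a ≤ b) :
    Fintype.card (Sym (Sym α b) a) ≤ Fintype.card (Sym (Sym α a) b) ∧
      (Fintype.card (Sym (Sym α b) a) = Fintype.card (Sym (Sym α a) b) ↔
        (a = 1 ∨ a = b ∨ Fintype.card α ≤ 2)) := by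
  have e1 : Fintype.card (Sym (Sym α b) a)
      = Nat.multichoose (Nat.multichoose (Fintype.card α) b) a := by
    rw [Sym.card_sym_eq_multichoose, Sym.card_sym_eq_multichoose]
  have e2 : Fintype.card (Sym (Sym α a) b)
      = Nat.multichoose (Nat.multichoose (Fintype.card α) a) b := by
    rw [Sym.card_sym_eq_multichoose, Sym.card_sym_eq_multichoose]
  rw [e1, e2]
  refine ⟨multichoose_multichoose_le _ a b ha hab, ?_, multichoose_multichoose_eq _ a b ha hab⟩
  intro heq
  by_contra hcon
  have h1 : a ≠ 1 := fun h => hcon (Or.inl h)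
  have h2 : a ≠ b := fun h => hcon (Or.inr (Or.inl h))
  have h3 : ¬ Fintype.card α ≤ 2 := fun h => hcon (Or.inr (Or.inr h))
  have hlt := multichoose_multichoose_lt (Fintype.card α) a b (by omega) (by omega) (by omega)
  omega

end Vale.Agent.Results.P181.A_DimensionInequality
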