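import Vale.Agent.H49.FoulkesDim
import Vale.Agent.Results.P181.A_DimensionInequality

/-!
# P181 (Foulkes' conjecture): the dimension inequality with its explicit binomial form

The statement of `A_DimensionInequality` (the number of multisets of size `a` of multisets of
size `b` on a finite set `α` is at most the number of multisets of size `b` of multisets of size
`a`, for `1 ≤ a ≤ b`, with equality exactly when `a = 1`, `a = b` or `α` has at most two
elements), together with the same inequality and equality cases written out in binomial
coefficients for every natural number `d`: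

  `C(C(d + b - 1, b) + a - 1, a) ≤ C(C(d + a - 1, a) + b - 1, b)`

(natural numbers, truncated subtraction; the number of multisets of size `k` on a set with `m`
elements is `C(m + k - 1, k)`).  For `d = dim V` these are the dimensions of `Sym^a (Sym^b V)`
and `Sym^b (Sym^a V)`.
-/

namespace Vale.Agent.Results.P181.B_DimensionAndBinomialForm

open Vale.Agent.H49.Foulkes

theorem result (α : Type*) [Fintype α] [DecidableEq α] (a b : ℕ) (ha : 1 ≤ a) (hab : a ≤ b) :
    (Fintype.card (Sym (Sym α b) a) ≤ Fintype.card (Sym (Sym α a) b) ∧
      (Fintype.card (Sym (Sym α b) a) = Fintype.card (Sym (Sym α a) b) ↔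
        (a = 1 ∨ a = b ∨ Fintype.card α ≤ 2))) ∧
    (∀ d : ℕ,
      Nat.choose (Nat.choose (d + b - 1) b + a - 1) a
          ≤ Nat.choose (Nat.choose (d + a - 1) a + b - 1) b ∧
        (Nat.choose (Nat.choose (d + b - 1) b + a - 1) a
            = Nat.choose (Nat.choose (d + a - 1) a + b - 1) b ↔
          (a = 1 ∨ a = b ∨ d ≤ 2))) := by
  refine ⟨Vale.Agent.Results.P181.A_DimensionInequality.result α a b ha hab, fun d => ?_⟩
  have e1 : Nat.choose (Nat.choose (d + b - 1) b + a - 1) a
      = Nat.multichoose (Nat.multichoose d b) a := by
    rw [Nat.multichoose_eq, Nat.multichoose_eq]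
  have e2 : Nat.choose (Nat.choose (d + a - 1) a + b - 1) b
      = Nat.multichoose (Nat.multichoose d a) b := by
    rw [Nat.multichoose_eq, Nat.multichoose_eq]
  rw [e1, e2]
  refine ⟨multichoose_multichoose_le d a b ha hab, ?_, multichoose_multichoose_eq d a b ha hab⟩
  intro heq
  by_contra hcon
  have h1 : a ≠ 1 := fun h => hcon (Or.inl h)
  have h2 : a ≠ b := fun h => hcon (Or.inr (Or.inl h))
  have h3 : ¬ d ≤ 2 := fun h => hcon (Or.inr (Or.inr h))
  have hlt := multichoose_multichoose_lt d a b (by omega) (by omega) (by omega)
  omega

end Vale.Agent.Results.P181.B_DimensionAndBinomialForm
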